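import Vale.Agent.Lib.P074.Defs

open MeasureTheory
open scoped ENNReal NNReal RealInnerProductSpace

namespace Vale.Agent.Lib.P074

variable {d : ℕ}

/-- Optimality criterion: if `T x` maximises `y ↦ ⟪x + v, y⟫` over a set `A` carrying the
image measure, then `T` is optimal for its push-forward. -/
lemma isOptMap_of_argmax (ρ : Measure (E d)) [IsFiniteMeasure ρ] (T : E d → E d)
    (hT : Measurable T) (A : Set (E d)) (hA : MeasurableSet A) (v : E d) (M : ℝ)
    (hTA : ∀ x, T x ∈ A) (hbd : ∀ y ∈ A, ‖y + v‖ ^ 2 ≤ M)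
    (hmax : ∀ x, ∀ y ∈ A, ⟪x + v, y⟫ ≤ ⟪x + v, T x⟫) :
    IsOptMap ρ (ρ.map T) T := by
  refine ⟨hT, rfl, ?_⟩
  intro S hS hSmap
  unfold mapCost
  -- S x ∈ A almost everywhere
  have hSA : ∀ᵐ x ∂ρ, S x ∈ A := by
    have h1 : (ρ.map S) Aᶜ = 0 := by
      rw [hSmap, Measure.map_apply hT hA.compl]
      have : T ⁻¹' Aᶜ = ∅ := by
        ext x; simp [hTA x]
      rw [this]; simp
    rw [Measure.map_apply hS hA.compl] at h1
    rw [ae_iff]
    exact h1
  set G : E d → ℝ≥0∞ := fun y => ENNReal.ofReal (‖y + v‖ ^ 2) with hG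
  have hGm : Measurable G := by
    apply ENNReal.measurable_ofReal.comp
    fun_prop
  have hGeq : ∫⁻ x, G (S x) ∂ρ = ∫⁻ x, G (T x) ∂ρ := by
    rw [← lintegral_map hGm hS, ← lintegral_map hGm hT, hSmap]
  have hGfin : ∫⁻ x, G (T x) ∂ρ ≠ ∞ := by
    have : ∫⁻ x, G (T x) ∂ρ ≤ ∫⁻ _x, ENNReal.ofReal M ∂ρ := by
      apply lintegral_mono
      intro x
      exact ENNReal.ofReal_le_ofReal (hbd _ (hTA x))
    refine ne_top_of_le_ne_top ?_ this
    rw [lintegral_const]
    exact ENNReal.mul_ne_top ENNReal.ofReal_ne_top (measure_ne_top _ _)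
  have hpt : ∀ᵐ x ∂ρ, ENNReal.ofReal (‖x - T x‖ ^ 2) + G (S x)
      ≤ ENNReal.ofReal (‖x - S x‖ ^ 2) + G (T x) := by
    filter_upwards [hSA] with x hx
    simp only [hG]
    rw [← ENNReal.ofReal_add (by positivity) (by positivity),
      ← ENNReal.ofReal_add (by positivity) (by positivity)]
    apply ENNReal.ofReal_le_ofReal
    have h := hmax x (S x) hx
    have e1 : ‖x - T x‖ ^ 2 = ‖x‖ ^ 2 - 2 * ⟪x, T x⟫ + ‖T x‖ ^ 2 := norm_sub_sq_real _ _
    have e2 : ‖x - S x‖ ^ 2 = ‖x‖ ^ 2 - 2 * ⟪x, S x⟫ + ‖S x‖ ^ 2 := norm_sub_sq_real _ _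
    have e3 : ‖S x + v‖ ^ 2 = ‖S x‖ ^ 2 + 2 * ⟪S x, v⟫ + ‖v‖ ^ 2 := norm_add_sq_real _ _
    have e4 : ‖T x + v‖ ^ 2 = ‖T x‖ ^ 2 + 2 * ⟪T x, v⟫ + ‖v‖ ^ 2 := norm_add_sq_real _ _
    rw [inner_add_left, inner_add_left, real_inner_comm (S x) v, real_inner_comm (T x) v] at h
    rw [e1, e2, e3, e4]
    linarith
  have hint : ∫⁻ x, ENNReal.ofReal (‖x - T x‖ ^ 2) ∂ρ + ∫⁻ x, G (S x) ∂ρ
      ≤ ∫⁻ x, ENNReal.ofReal (‖x - S x‖ ^ 2) ∂ρ + ∫⁻ x, G (T x) ∂ρ := by
    rw [← lintegral_add_right _ (show Measurable fun x => G (S x) from hGm.comp hS),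
      ← lintegral_add_right _ (show Measurable fun x => G (T x) from hGm.comp hT)]
    exact lintegral_mono_ae hpt
  rw [hGeq] at hint
  exact (ENNReal.add_le_add_iff_right hGfin).1 hint


/-- axis-parallel box -/
def box (l u : Fin d → ℝ) : Set (E d) := {x | ∀ i, l i ≤ x i ∧ x i ≤ u i}

lemma mem_box {l u : Fin d → ℝ} {x : E d} : x ∈ box l u ↔ ∀ i, l i ≤ x i ∧ x i ≤ u i := Iff.rfl

lemma box_eq (l u : Fin d → ℝ) : box l u = (WithLp.ofLp : E d → (Fin d → ℝ)) ⁻¹' (Set.Icc l u) := by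
  ext x
  rw [mem_box, Set.mem_preimage, Set.mem_Icc, Pi.le_def, Pi.le_def]
  exact forall_and

lemma volume_box (l u : Fin d → ℝ) :
    volume (box l u) = ∏ i, ENNReal.ofReal (u i - l i) := by
  rw [box_eq, (PiLp.volume_preserving_ofLp (Fin d)).measure_preimage
    measurableSet_Icc.nullMeasurableSet, Real.volume_Icc_pi]

lemma measurableSet_box (l u : Fin d → ℝ) : MeasurableSet (box l u) := by
  rw [box_eq]
  exact (PiLp.volume_preserving_ofLp (Fin d)).measurable measurableSet_Icc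

lemma isCompact_box (l u : Fin d → ℝ) : IsCompact (box l u) := by
  rw [box_eq]
  exact ((PiLp.homeomorph 2 (fun _ : Fin d => ℝ)).isCompact_preimage (s := Set.Icc l u)).2
    isCompact_Icc

lemma convex_box (l u : Fin d → ℝ) : Convex ℝ (box l u) := by
  intro x hx y hy a b ha hb hab i
  have hx' := hx i
  have hy' := hy i
  simp only [PiLp.add_apply, PiLp.smul_apply, smul_eq_mul]
  have h1 := mul_le_mul_of_nonneg_left hx'.1 ha
  have h2 := mul_le_mul_of_nonneg_left hy'.1 hb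
  have h3 := mul_le_mul_of_nonneg_left hx'.2 ha
  have h4 := mul_le_mul_of_nonneg_left hy'.2 hb
  have e1 : l i = a * l i + b * l i := by rw [← add_mul, hab, one_mul]
  have e2 : u i = a * u i + b * u i := by rw [← add_mul, hab, one_mul]
  constructor
  · linarith
  · linarith

/-- the cube `[-1/2,1/2]^d` -/
def cube (d : ℕ) : Set (E d) := box (fun _ => -(1/2)) (fun _ => 1/2)

lemma volume_cube : volume (cube d) = 1 := by
  rw [cube, volume_box]
  norm_num

lemma interior_cube_nonempty : (interior (cube d)).Nonempty := by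
  refine ⟨0, mem_interior.2 ⟨Metric.ball 0 (1/2), ?_, Metric.isOpen_ball, by simp⟩⟩
  intro x hx i
  have h1 : ‖x i‖ ≤ ‖x‖ := PiLp.norm_apply_le x i
  have h2 : ‖x‖ < 1/2 := by simpa using hx
  rw [Real.norm_eq_abs] at h1
  have := abs_le.1 (h1.trans h2.le)
  exact this

lemma unif_cube : unif (cube d) = volume.restrict (cube d) := by
  rw [unif, volume_cube]; simp



/-- The explicit (Laguerre cell) map: the cell of the small atom `s ε e_{i1}` is the thin triangle
`|x_{i0}| ≤ ε (1/2 + s x_{i1})`; the rest goes to `∓ e_{i0}` according to the sign of `x_{i0}`. -/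
noncomputable def Tmap (i0 i1 : Fin d) (s ε : ℝ) (x : E d) : E d :=
  if |x i0| ≤ ε * (1/2 + s * x i1) then EuclideanSpace.single i1 (s * ε)
  else if x i0 < 0 then EuclideanSpace.single i0 (-1) else EuclideanSpace.single i0 1

lemma measurable_coord (i : Fin d) : Measurable (fun x : E d => x i) := by
  fun_prop

lemma measurable_Tmap (i0 i1 : Fin d) (s ε : ℝ) : Measurable (Tmap i0 i1 s ε) := by
  unfold Tmap
  refine Measurable.ite ?_ measurable_const (Measurable.ite ?_ measurable_const measurable_const)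
  · exact measurableSet_le (by fun_prop) (by fun_prop)
  · exact measurableSet_lt (by fun_prop) (by fun_prop)

/-- the three atoms -/
def atoms (i0 i1 : Fin d) (s ε : ℝ) : Set (E d) :=
  {EuclideanSpace.single i0 (-1), EuclideanSpace.single i1 (s * ε), EuclideanSpace.single i0 1}

lemma Tmap_mem (i0 i1 : Fin d) (s ε : ℝ) (x : E d) : Tmap i0 i1 s ε x ∈ atoms i0 i1 s ε := by
  unfold Tmap atoms
  split_ifs <;> simp

lemma Tmap_argmax (i0 i1 : Fin d) (h01 : i0 ≠ i1) (s ε : ℝ) (hs : s * s = 1) (x : E d) :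
    ∀ y ∈ atoms i0 i1 s ε, ⟪x + EuclideanSpace.single i1 (s / 2), y⟫
      ≤ ⟪x + EuclideanSpace.single i1 (s / 2), Tmap i0 i1 s ε x⟫ := by
  have w0 : (x + EuclideanSpace.single i1 (s / 2)) i0 = x i0 := by
    simp [h01]
  have w1 : (x + EuclideanSpace.single i1 (s / 2)) i1 = x i1 + s / 2 := by
    simp
  have key : s * ε * (x i1 + s / 2) = ε * (1/2 + s * x i1) := by
    have : s * ε * (x i1 + s / 2) = ε * (s * s / 2 + s * x i1) := by ring
    rw [this, hs]
  intro y hy
  unfold Tmap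
  simp only [atoms, Set.mem_insert_iff, Set.mem_singleton_iff] at hy
  split_ifs with h1 h2
  · have := abs_le.1 h1
    rcases hy with rfl | rfl | rfl <;>
    simp only [EuclideanSpace.inner_single_right, w0, w1, conj_trivial, key] <;> linarith [this.1, this.2]
  · have h3 : ε * (1/2 + s * x i1) < - x i0 := by
      rw [not_le, abs_of_neg h2] at h1; exact h1
    rcases hy with rfl | rfl | rfl <;>
    simp only [EuclideanSpace.inner_single_right, w0, w1, conj_trivial, key] <;> linarith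
  · have h2' : 0 ≤ x i0 := not_lt.1 h2
    have h3 : ε * (1/2 + s * x i1) < x i0 := by
      rw [not_le, abs_of_nonneg h2'] at h1; exact h1
    rcases hy with rfl | rfl | rfl <;>
    simp only [EuclideanSpace.inner_single_right, w0, w1, conj_trivial, key] <;> linarith



/-- reflection in the coordinate `i1` -/
noncomputable def Rfl (i1 : Fin d) : E d ≃ₗᵢ[ℝ] E d :=
  LinearIsometryEquiv.piLpCongrRight 2
    (fun i => if i = i1 then LinearIsometryEquiv.neg ℝ else LinearIsometryEquiv.refl ℝ ℝ)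

lemma Rfl_apply (i1 : Fin d) (x : E d) (i : Fin d) :
    (Rfl i1 x) i = if i = i1 then - x i else x i := by
  simp only [Rfl, LinearIsometryEquiv.piLpCongrRight_apply]
  split_ifs <;> simp

lemma Rfl_single (i1 i : Fin d) (a : ℝ) :
    Rfl i1 (EuclideanSpace.single i a) = EuclideanSpace.single i (if i = i1 then -a else a) := by
  simp only [Rfl, LinearIsometryEquiv.piLpCongrRight_single]
  split_ifs <;> simp

lemma Rfl_preimage_cube (i1 : Fin d) : (Rfl i1) ⁻¹' (cube d) = cube d := by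
  ext x
  simp only [Set.mem_preimage, cube, mem_box, Rfl_apply]
  constructor
  · intro h i
    have := h i
    split_ifs at this <;> constructor <;> linarith [this.1, this.2]
  · intro h i
    have := h i
    split_ifs <;> constructor <;> linarith [this.1, this.2]

lemma map_Rfl (i1 : Fin d) :
    (volume.restrict (cube d)).map (Rfl i1) = volume.restrict (cube d) := by
  have hm : MeasurableSet (cube d) := measurableSet_box _ _
  have h := ((Rfl i1).measurePreserving).restrict_preimage hm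
  rw [Rfl_preimage_cube] at h
  exact h.map_eq

lemma Tmap_neg (i0 i1 : Fin d) (h01 : i0 ≠ i1) (s ε : ℝ) (x : E d) :
    Tmap i0 i1 (-s) ε x = Rfl i1 (Tmap i0 i1 s ε (Rfl i1 x)) := by
  unfold Tmap
  simp only [Rfl_apply, h01, if_true, if_false]
  have e : ε * (1 / 2 + -s * x i1) = ε * (1 / 2 + s * -x i1) := by ring
  rw [e]
  split_ifs <;> simp [Rfl_single, h01]



/-- a box inside the cube constrained only in the coordinates `i0`, `i1` -/
def box2 (i0 i1 : Fin d) (a0 b0 a1 b1 : ℝ) : Set (E d) :=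
  box (fun i => if i = i0 then a0 else if i = i1 then a1 else -(1/2))
    (fun i => if i = i0 then b0 else if i = i1 then b1 else 1/2)

lemma volume_box2 (i0 i1 : Fin d) (h01 : i0 ≠ i1) (a0 b0 a1 b1 : ℝ) :
    volume (box2 i0 i1 a0 b0 a1 b1) = ENNReal.ofReal (b0 - a0) * ENNReal.ofReal (b1 - a1) := by
  rw [box2, volume_box, Finset.prod_eq_mul i0 i1 h01]
  · simp [h01.symm]
  · intro c _ hc
    simp only [hc.1, hc.2, if_false]
    norm_num
  · intro h; exact absurd (Finset.mem_univ _) h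
  · intro h; exact absurd (Finset.mem_univ _) h

lemma mem_box2 {i0 i1 : Fin d} (h01 : i0 ≠ i1) {a0 b0 a1 b1 : ℝ} {x : E d}
    (hx : x ∈ box2 i0 i1 a0 b0 a1 b1) : (a0 ≤ x i0 ∧ x i0 ≤ b0) ∧ (a1 ≤ x i1 ∧ x i1 ≤ b1) := by
  have h0 := hx i0
  have h1 := hx i1
  simp only [if_true, h01.symm, if_false] at h0 h1
  exact ⟨h0, h1⟩

lemma box2_subset_cube (i0 i1 : Fin d) {a0 b0 a1 b1 : ℝ} (ha0 : -(1/2) ≤ a0) (hb0 : b0 ≤ 1/2)
    (ha1 : -(1/2) ≤ a1) (hb1 : b1 ≤ 1/2) : box2 i0 i1 a0 b0 a1 b1 ⊆ cube d := by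
  intro x hx i
  have := hx i
  dsimp only at this ⊢
  split_ifs at this <;> constructor <;> linarith [this.1, this.2]

lemma mem_box2_of {i0 i1 : Fin d} {a0 b0 a1 b1 : ℝ} {x : E d} (hx : x ∈ cube d)
    (h0 : a0 ≤ x i0 ∧ x i0 ≤ b0) (h1 : a1 ≤ x i1 ∧ x i1 ≤ b1) : x ∈ box2 i0 i1 a0 b0 a1 b1 := by
  intro i
  dsimp only
  split_ifs with h h'
  · subst h; exact h0
  · subst h'; exact h1
  · exact hx i

end Vale.Agent.Lib.P074
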