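import Mathlib

open MeasureTheory
open scoped ENNReal NNReal

namespace Vale.Agent.Lib.P074

/-- Euclidean space of dimension `d`. -/
abbrev E (d : ℕ) := EuclideanSpace ℝ (Fin d)

/-- The uniform probability measure on `K`, i.e. `|K|⁻¹ 1_K dx`. -/
noncomputable def unif {d : ℕ} (K : Set (E d)) : Measure (E d) :=
  (volume K)⁻¹ • (volume.restrict K)

/-- Quadratic transport cost of the map `T` for the source measure `ρ`. -/
noncomputable def mapCost {d : ℕ} (ρ : Measure (E d)) (T : E d → E d) : ℝ≥0∞ :=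
  ∫⁻ x, ENNReal.ofReal (‖x - T x‖ ^ 2) ∂ρ

/-- `T` is a quadratic optimal transport map from `ρ` to `μ`: a Borel map pushing `ρ` to `μ`
whose cost is minimal among all Borel maps pushing `ρ` to `μ`. -/
def IsOptMap {d : ℕ} (ρ μ : Measure (E d)) (T : E d → E d) : Prop :=
  Measurable T ∧ ρ.map T = μ ∧
    ∀ S : E d → E d, Measurable S → ρ.map S = μ → mapCost ρ T ≤ mapCost ρ S

/-- The quadratic Wasserstein distance: infimum over couplings. -/
noncomputable def W2 {d : ℕ} (μ ν : Measure (E d)) : ℝ≥0∞ :=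
  (⨅ π : {π : Measure (E d × E d) // π.map Prod.fst = μ ∧ π.map Prod.snd = ν},
      ∫⁻ p, ENNReal.ofReal (‖p.1 - p.2‖ ^ 2) ∂π.1) ^ (1 / 2 : ℝ)

/-- The `L²(ρ)` distance of two maps. -/
noncomputable def L2dist {d : ℕ} (ρ : Measure (E d)) (T S : E d → E d) : ℝ≥0∞ :=
  (∫⁻ x, ENNReal.ofReal (‖T x - S x‖ ^ 2) ∂ρ) ^ (1 / 2 : ℝ)

/-- The exponent `α` is admissible in dimension `d`. -/
def Admissible (d : ℕ) (α : ℝ) : Prop :=
  ∀ K : Set (E d), IsCompact K → Convex ℝ K → (interior K).Nonempty →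
  ∀ Y : Set (E d), IsCompact Y → Y.Nonempty →
  ∃ C : ℝ≥0, ∀ μ ν : Measure (E d), IsProbabilityMeasure μ → IsProbabilityMeasure ν →
    μ Yᶜ = 0 → ν Yᶜ = 0 →
    ∀ T S : E d → E d, IsOptMap (unif K) μ T → IsOptMap (unif K) ν S →
      L2dist (unif K) T S ≤ C * W2 μ ν ^ α

end Vale.Agent.Lib.P074
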