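import Vale.Agent.Lib.P074.Basic

open MeasureTheory
open scoped ENNReal NNReal RealInnerProductSpace

namespace Vale.Agent.Lib.P074

variable {d : ℕ}

/-- source measure -/
noncomputable abbrev rho (d : ℕ) : Measure (E d) := volume.restrict (cube d)

instance : IsProbabilityMeasure (rho d) := ⟨by
  rw [Measure.restrict_apply MeasurableSet.univ, Set.univ_inter, volume_cube]⟩

lemma atoms_bound (i0 i1 : Fin d) (s ε : ℝ) (hs : s * s = 1) (hε0 : 0 ≤ ε) (hε : ε ≤ 1) :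
    ∀ y ∈ atoms i0 i1 s ε, ‖y‖ ≤ 1 := by
  have hs' : |s| = 1 := by
    have : |s| * |s| = 1 := by rw [← abs_mul, hs, abs_one]
    nlinarith [abs_nonneg s]
  intro y hy
  simp only [atoms, Set.mem_insert_iff, Set.mem_singleton_iff] at hy
  rcases hy with rfl | rfl | rfl
  · simp
  · simp only [PiLp.norm_single, Real.norm_eq_abs, abs_mul, hs', one_mul, abs_of_nonneg hε0, hε]
  · simp

lemma isOptMap_Tmap (i0 i1 : Fin d) (h01 : i0 ≠ i1) (s ε : ℝ) (hs : s * s = 1)
    (hε0 : 0 ≤ ε) (hε : ε ≤ 1) :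
    IsOptMap (rho d) ((rho d).map (Tmap i0 i1 s ε)) (Tmap i0 i1 s ε) := by
  have hs' : |s| = 1 := by
    have : |s| * |s| = 1 := by rw [← abs_mul, hs, abs_one]
    nlinarith [abs_nonneg s]
  refine isOptMap_of_argmax (rho d) _ (measurable_Tmap i0 i1 s ε) (atoms i0 i1 s ε) ?_
    (EuclideanSpace.single i1 (s / 2)) 4 (Tmap_mem i0 i1 s ε) ?_ (Tmap_argmax i0 i1 h01 s ε hs)
  · unfold atoms
    exact (Set.toFinite _).measurableSet
  · intro y hy
    have h1 := atoms_bound i0 i1 s ε hs hε0 hε y hy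
    have h2 : ‖(EuclideanSpace.single i1 (s / 2) : E d)‖ ≤ 1 := by
      simp only [PiLp.norm_single, Real.norm_eq_abs, abs_div, hs']
      norm_num
    have h3 := norm_add_le y (EuclideanSpace.single i1 (s / 2) : E d)
    have h4 : ‖y + (EuclideanSpace.single i1 (s / 2) : E d)‖ ≤ 2 := by linarith
    nlinarith [norm_nonneg (y + (EuclideanSpace.single i1 (s / 2) : E d))]

lemma map_Tmap_neg (i0 i1 : Fin d) (h01 : i0 ≠ i1) (s ε : ℝ) :
    (rho d).map (Tmap i0 i1 (-s) ε) = ((rho d).map (Tmap i0 i1 s ε)).map (Rfl i1) := by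
  have hR : Measurable (Rfl i1 : E d → E d) := (Rfl i1).continuous.measurable
  have hT := measurable_Tmap i0 i1 s ε
  have e : Tmap i0 i1 (-s) ε = (Rfl i1) ∘ (Tmap i0 i1 s ε) ∘ (Rfl i1) := by
    funext x; exact Tmap_neg i0 i1 h01 s ε x
  rw [e, ← Measure.map_map hR (hT.comp hR), ← Measure.map_map hT hR, map_Rfl]

/-- upper bound for the Wasserstein distance -/
lemma W2_le (i0 i1 : Fin d) (h01 : i0 ≠ i1) (s ε : ℝ) (hs : s * s = 1)
    (hε0 : 0 ≤ ε) (hε : ε ≤ 1/2) :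
    W2 ((rho d).map (Tmap i0 i1 s ε)) ((rho d).map (Tmap i0 i1 (-s) ε))
      ≤ (ENNReal.ofReal (8 * ε ^ 3)) ^ (1 / 2 : ℝ) := by
  have hs' : |s| = 1 := by
    have : |s| * |s| = 1 := by rw [← abs_mul, hs, abs_one]
    nlinarith [abs_nonneg s]
  have hR : Measurable (Rfl i1 : E d → E d) := (Rfl i1).continuous.measurable
  have hT := measurable_Tmap i0 i1 s ε
  unfold W2
  apply ENNReal.rpow_le_rpow _ (by norm_num)
  have hpair : Measurable (fun y : E d => (y, Rfl i1 y)) := measurable_id.prodMk hR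
  let π : Measure (E d × E d) := ((rho d).map (Tmap i0 i1 s ε)).map (fun y => (y, Rfl i1 y))
  have hπ1 : π.map Prod.fst = (rho d).map (Tmap i0 i1 s ε) := by
    simp only [π]
    rw [Measure.map_map measurable_fst hpair]
    exact Measure.map_id
  have hπ2 : π.map Prod.snd = (rho d).map (Tmap i0 i1 (-s) ε) := by
    simp only [π]
    rw [Measure.map_map measurable_snd hpair, map_Tmap_neg i0 i1 h01]
    rfl
  refine (iInf_le _ ⟨π, hπ1, hπ2⟩).trans ?_
  have hcm : Measurable (fun p : E d × E d => ENNReal.ofReal (‖p.1 - p.2‖ ^ 2)) := by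
    apply ENNReal.measurable_ofReal.comp
    fun_prop
  simp only [π]
  rw [lintegral_map hcm hpair]
  have hcm2 : Measurable (fun a : E d => ENNReal.ofReal (‖(a, (Rfl i1) a).1 - (a, (Rfl i1) a).2‖ ^ 2)) :=
    hcm.comp hpair
  rw [lintegral_map hcm2 hT]
  dsimp only
  -- pointwise bound
  set slab : Set (E d) := box2 i0 i1 (-ε) ε (-(1/2)) (1/2) with hslab
  have hslabm : MeasurableSet slab := measurableSet_box _ _
  have hpt : ∀ x ∈ cube d, ENNReal.ofReal (‖Tmap i0 i1 s ε x - Rfl i1 (Tmap i0 i1 s ε x)‖ ^ 2)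
      ≤ slab.indicator (fun _ => ENNReal.ofReal (4 * ε ^ 2)) x := by
    intro x hx
    unfold Tmap
    split_ifs with h1 h2
    · have hx1 := hx i1
      have hsx : s * x i1 ≤ 1/2 := by
        have : |s * x i1| ≤ 1/2 := by
          rw [abs_mul, hs', one_mul]; exact abs_le.2 hx1
        exact (le_abs_self _).trans this
      have hle : |x i0| ≤ ε := by
        calc |x i0| ≤ ε * (1/2 + s * x i1) := h1
          _ ≤ ε * 1 := by apply mul_le_mul_of_nonneg_left _ hε0; linarith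
          _ = ε := mul_one _
      have hmem : x ∈ slab := mem_box2_of hx (abs_le.1 hle) hx1
      rw [Set.indicator_of_mem hmem]
      apply ENNReal.ofReal_le_ofReal
      rw [Rfl_single, if_pos rfl, ← PiLp.single_sub, PiLp.norm_single, Real.norm_eq_abs]
      have : s * ε - -(s * ε) = s * (2 * ε) := by ring
      rw [this, abs_mul, hs', one_mul, sq_abs]
      nlinarith
    · rw [Rfl_single, if_neg h01]; simp
    · rw [Rfl_single, if_neg h01]; simp
  calc ∫⁻ x, ENNReal.ofReal (‖Tmap i0 i1 s ε x - Rfl i1 (Tmap i0 i1 s ε x)‖ ^ 2) ∂(rho d)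
      ≤ ∫⁻ x, slab.indicator (fun _ => ENNReal.ofReal (4 * ε ^ 2)) x ∂(rho d) :=
        setLIntegral_mono (measurable_const.indicator hslabm) hpt
    _ = ENNReal.ofReal (4 * ε ^ 2) * (rho d) slab := lintegral_indicator_const hslabm _
    _ ≤ ENNReal.ofReal (4 * ε ^ 2) * volume slab := by
        gcongr
        exact Measure.restrict_le_self
    _ = ENNReal.ofReal (8 * ε ^ 3) := by
        rw [hslab, volume_box2 i0 i1 h01, ← ENNReal.ofReal_mul (by linarith),
          ← ENNReal.ofReal_mul (by positivity)]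
        congr 1
        ring



/-- lower bound for the `L²` distance of the two optimal maps -/
lemma L2dist_ge (i0 i1 : Fin d) (h01 : i0 ≠ i1) (ε : ℝ) (hε0 : 0 < ε) (hε : ε ≤ 1/2) :
    (ENNReal.ofReal (ε / 16)) ^ (1 / 2 : ℝ)
      ≤ L2dist (rho d) (Tmap i0 i1 1 ε) (Tmap i0 i1 (-1) ε) := by
  unfold L2dist
  apply ENNReal.rpow_le_rpow _ (by norm_num)
  set D : Set (E d) := box2 i0 i1 (ε / 2) (3 * ε / 4) (1/4) (1/2) with hD
  have hDm : MeasurableSet D := measurableSet_box _ _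
  have hDc : D ⊆ cube d := box2_subset_cube i0 i1 (by linarith) (by linarith) (by norm_num) le_rfl
  have hpt : ∀ x, D.indicator (fun _ => (1 : ℝ≥0∞)) x
      ≤ ENNReal.ofReal (‖Tmap i0 i1 1 ε x - Tmap i0 i1 (-1) ε x‖ ^ 2) := by
    intro x
    by_cases hx : x ∈ D
    · rw [Set.indicator_of_mem hx]
      obtain ⟨⟨h0a, h0b⟩, ⟨h1a, h1b⟩⟩ := mem_box2 h01 hx
      have hpos : 0 < x i0 := by linarith
      have e1 : Tmap i0 i1 1 ε x = EuclideanSpace.single i1 (1 * ε) := by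
        unfold Tmap
        rw [if_pos]
        rw [abs_of_pos hpos]
        nlinarith
      have e2 : Tmap i0 i1 (-1) ε x = EuclideanSpace.single i0 1 := by
        unfold Tmap
        rw [if_neg, if_neg (not_lt.2 hpos.le)]
        rw [abs_of_pos hpos, not_le]
        nlinarith
      rw [e1, e2, norm_sub_sq_real, EuclideanSpace.inner_single_right]
      rw [← ENNReal.ofReal_one]
      apply ENNReal.ofReal_le_ofReal
      simp only [PiLp.norm_single, PiLp.single_apply, h01, if_false]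
      simp
      positivity
    · rw [Set.indicator_of_notMem hx]; exact zero_le
  calc ENNReal.ofReal (ε / 16) = volume D := by
        rw [hD, volume_box2 i0 i1 h01, ← ENNReal.ofReal_mul (by linarith)]
        congr 1
        ring
    _ = (rho d) D := by
        rw [Measure.restrict_apply hDm, Set.inter_eq_left.2 hDc]
    _ = ∫⁻ x, D.indicator (fun _ => (1 : ℝ≥0∞)) x ∂(rho d) := by
        rw [lintegral_indicator_const hDm, one_mul]
    _ ≤ _ := lintegral_mono hpt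



/-- real-variable endgame: the inequality cannot hold for all small `ε` when `α > 1/3`. -/
lemma no_const (C α : ℝ) (hC : 0 ≤ C) (hα : 1/3 < α)
    (h : ∀ ε : ℝ, 0 < ε → ε ≤ 1/2 → (ε / 16) ^ (1/2 : ℝ) ≤ C * ((8 * ε ^ 3) ^ (1/2 : ℝ)) ^ α) :
    False := by
  set q : ℝ := (α - 1/3) / 2 with hq
  have hq0 : 0 < q := by rw [hq]; linarith
  set w : ℝ := (1 / (6 * (C + 1))) ^ (1 / q) with hw
  have hb0 : 0 < 1 / (6 * (C + 1)) := by positivity
  have hw0 : 0 < w := Real.rpow_pos_of_pos hb0 _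
  set ε : ℝ := min (1/2) (w / 2) with hε
  have hε0 : 0 < ε := lt_min (by norm_num) (by linarith)
  have hε1 : ε ≤ 1/2 := min_le_left _ _
  have hε2 : 2 * ε ≤ w := by
    have : ε ≤ w / 2 := min_le_right _ _
    linarith
  have h1 := h ε hε0 hε1
  have h2ε : 0 < 2 * ε := by linarith
  -- rewrite the right-hand side
  have e8 : 8 * ε ^ 3 = (2 * ε) ^ (3 : ℝ) := by
    rw [show (3 : ℝ) = ((3 : ℕ) : ℝ) by norm_num, Real.rpow_natCast]; ring
  have eR : ((8 * ε ^ 3) ^ (1/2 : ℝ)) ^ α = (2 * ε) ^ (1/2 : ℝ) * (2 * ε) ^ (3 * q) := by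
    rw [e8, ← Real.rpow_mul h2ε.le, ← Real.rpow_mul h2ε.le, ← Real.rpow_add h2ε]
    congr 1
    rw [hq]; ring
  have eL : (ε / 16) ^ (1/2 : ℝ) = (2 * ε) ^ (1/2 : ℝ) * (1 / 32) ^ (1/2 : ℝ) := by
    rw [← Real.mul_rpow h2ε.le (by norm_num)]
    congr 1
    ring
  rw [eR, eL] at h1
  have hp : 0 < (2 * ε) ^ (1/2 : ℝ) := Real.rpow_pos_of_pos h2ε _
  have h3 : (1 / 32 : ℝ) ^ (1/2 : ℝ) ≤ C * (2 * ε) ^ (3 * q) := by
    have : (2 * ε) ^ (1/2 : ℝ) * (1 / 32) ^ (1/2 : ℝ)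
        ≤ (2 * ε) ^ (1/2 : ℝ) * (C * (2 * ε) ^ (3 * q)) := by
      calc _ ≤ C * ((2 * ε) ^ (1/2 : ℝ) * (2 * ε) ^ (3 * q)) := h1
        _ = _ := by ring
    exact le_of_mul_le_mul_left this hp
  -- (2ε)^(3q) ≤ (2ε)^q ≤ w^q = 1/(6(C+1))
  have h2ε1 : 2 * ε ≤ 1 := by linarith
  have h4 : (2 * ε) ^ (3 * q) ≤ (2 * ε) ^ q :=
    Real.rpow_le_rpow_of_exponent_ge h2ε h2ε1 (by linarith)
  have h5 : (2 * ε) ^ q ≤ w ^ q := Real.rpow_le_rpow h2ε.le hε2 hq0.le
  have h6 : w ^ q = 1 / (6 * (C + 1)) := by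
    rw [hw, ← Real.rpow_mul hb0.le, one_div_mul_cancel hq0.ne', Real.rpow_one]
  have h7 : C * (2 * ε) ^ (3 * q) ≤ C * (1 / (6 * (C + 1))) := by
    apply mul_le_mul_of_nonneg_left _ hC
    rw [← h6]; exact h4.trans h5
  have h8 : C * (1 / (6 * (C + 1))) < 1 / 6 := by
    rw [mul_one_div, div_lt_div_iff₀ (by positivity) (by norm_num)]
    nlinarith
  have h9 : (1 / 6 : ℝ) < (1 / 32 : ℝ) ^ (1/2 : ℝ) := by
    rw [← Real.sqrt_eq_rpow]
    apply Real.lt_sqrt_of_sq_lt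
    norm_num
  linarith



lemma map_Tmap_compl_ball (i0 i1 : Fin d) (s ε : ℝ) (hs : s * s = 1) (hε0 : 0 ≤ ε) (hε : ε ≤ 1) :
    ((rho d).map (Tmap i0 i1 s ε)) (Metric.closedBall (0 : E d) 1)ᶜ = 0 := by
  rw [Measure.map_apply (measurable_Tmap i0 i1 s ε) Metric.isClosed_closedBall.measurableSet.compl]
  have : (Tmap i0 i1 s ε) ⁻¹' (Metric.closedBall (0 : E d) 1)ᶜ = ∅ := by
    ext x
    simp only [Set.mem_preimage, Set.mem_compl_iff, Metric.mem_closedBall, dist_zero_right,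
      Set.mem_empty_iff_false, iff_false, not_not]
    exact atoms_bound i0 i1 s ε hs hε0 hε _ (Tmap_mem i0 i1 s ε x)
  rw [this, measure_empty]

theorem not_admissible (d : ℕ) (hd : 2 ≤ d) (α : ℝ) (hα : 1/3 < α) : ¬ Admissible d α := by
  intro hadm
  let i0 : Fin d := ⟨0, by omega⟩
  let i1 : Fin d := ⟨1, by omega⟩
  have h01 : i0 ≠ i1 := by simp [i0, i1, Fin.ext_iff]
  obtain ⟨C, hC⟩ := hadm (cube d) (isCompact_box _ _) (convex_box _ _) interior_cube_nonempty
    (Metric.closedBall 0 1) (isCompact_closedBall 0 1) ⟨0, by simp⟩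
  rw [unif_cube] at hC
  have hα0 : 0 < α := by linarith
  apply no_const C α (NNReal.coe_nonneg C) hα
  intro ε hε0 hε
  have hopt1 := isOptMap_Tmap i0 i1 h01 1 ε (by norm_num) hε0.le (by linarith)
  have hopt2 := isOptMap_Tmap i0 i1 h01 (-1) ε (by norm_num) hε0.le (by linarith)
  have hmain := hC _ _
    (Measure.isProbabilityMeasure_map (measurable_Tmap i0 i1 1 ε).aemeasurable)
    (Measure.isProbabilityMeasure_map (measurable_Tmap i0 i1 (-1) ε).aemeasurable)
    (map_Tmap_compl_ball i0 i1 1 ε (by norm_num) hε0.le (by linarith))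
    (map_Tmap_compl_ball i0 i1 (-1) ε (by norm_num) hε0.le (by linarith))
    _ _ hopt1 hopt2
  have hlow := L2dist_ge i0 i1 h01 ε hε0 hε
  have hup := W2_le i0 i1 h01 1 ε (by norm_num) hε0.le hε
  have hchain : (ENNReal.ofReal (ε / 16)) ^ (1 / 2 : ℝ)
      ≤ (C : ℝ≥0∞) * ((ENNReal.ofReal (8 * ε ^ 3)) ^ (1 / 2 : ℝ)) ^ α := by
    refine hlow.trans (hmain.trans ?_)
    gcongr
  have p1 : 0 < ε / 16 := by positivity
  have p2 : 0 < 8 * ε ^ 3 := by positivity
  have p3 : 0 < (8 * ε ^ 3) ^ (1 / 2 : ℝ) := Real.rpow_pos_of_pos p2 _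
  rw [ENNReal.ofReal_rpow_of_pos p1, ENNReal.ofReal_rpow_of_pos p2, ENNReal.ofReal_rpow_of_pos p3,
    ← ENNReal.ofReal_coe_nnreal, ← ENNReal.ofReal_mul (NNReal.coe_nonneg C)] at hchain
  exact (ENNReal.ofReal_le_ofReal_iff (by positivity)).1 hchain

end Vale.Agent.Lib.P074
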